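import Mathlib

/-! P034: abstract chain lemma and three-level rounding. -/

namespace Vale.Agent.H24.P034

open Finset

variable {α : Type*} [Fintype α] [DecidableEq α]

omit [Fintype α] in
theorem sdiff_card_union {O Y : Finset α} (hY : Disjoint Y O) {O' : Finset α}
    (h : O ∪ Y ⊆ O') : (O' \ O).card = Y.card + (O' \ (O ∪ Y)).card := by
  have h8 : O' \ O = Y ∪ (O' \ (O ∪ Y)) := by
    ext x
    simp only [Finset.mem_sdiff, Finset.mem_union]
    constructor
    · rintro ⟨hx, hx2⟩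
      by_cases hxY : x ∈ Y
      · exact Or.inl hxY
      · exact Or.inr ⟨hx, by rintro (h | h); exacts [hx2 h, hxY h]⟩
    · rintro (hx | ⟨hx, hx2⟩)
      · exact ⟨h (Finset.mem_union_right _ hx), Finset.disjoint_left.mp hY hx⟩
      · exact ⟨hx, fun h => hx2 (Or.inl h)⟩
  rw [h8, Finset.card_union_of_disjoint]
  rw [Finset.disjoint_left]
  intro x hx hx2
  exact (Finset.mem_sdiff.mp hx2).2 (Finset.mem_union_right _ hx)

theorem chain_aux {f fp : Finset α → ℝ} {T : Finset α → Finset α → ℝ} {W : Finset α}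
    {d th : ℝ} {nu : ℕ} (hd : 0 ≤ d) (hT : ∀ O Y, 0 ≤ T O Y)
    (hf : ∀ O, W ⊆ O → 0 ≤ f O ∧ f O ≤ fp O)
    (h2 : ∀ O, W ⊆ O → fp O < th →
      ∑ Y with Y.Nonempty ∧ Disjoint Y O, T O Y * d ^ Y.card ≤ fp O - f O)
    (Good : Finset α → Prop)
    (h3 : ∀ O V, W ⊆ O → O ⊆ V → (V \ W).card ≤ nu → Good V → fp O < th →
      th - f O ≤ ∑ Y ∈ V.powerset with Y.Nonempty ∧ Disjoint Y O, T O Y)
    (hG : ∀ V, Good V → th ≤ fp V) :
    ∀ n : ℕ, ∀ O : Finset α, W ⊆ O → (O \ W).card ≤ nu → (univ \ O).card = n →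
    ∃ π : Finset α → ℝ, (∀ O', 0 ≤ π O') ∧
      (∀ O', π O' ≠ 0 → O ⊆ O' ∧ (O' \ W).card ≤ nu ∧ th ≤ fp O') ∧
      (∀ V, O ⊆ V → (V \ W).card ≤ nu → Good V → 1 ≤ ∑ O' ∈ V.powerset, π O') ∧
      (∑ O', π O' * d ^ (O' \ O).card ≤ 1) ∧
      (fp O < th → ∑ O', π O' * d ^ (O' \ O).card ≤ (fp O - f O) / (th - f O)) := by
  intro n
  induction n using Nat.strong_induction_on with
  | _ n ih =>
  intro V hWV hVnu hV
  by_cases hL : th ≤ fp V
  · refine ⟨fun O => if O = V then 1 else 0,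
      fun O => by dsimp only; split_ifs <;> norm_num, ?_, ?_, ?_, ?_⟩
    · intro O hO
      by_cases h : O = V
      · subst h; exact ⟨Finset.Subset.refl _, hVnu, hL⟩
      · simp [h] at hO
    · intro U hU _ _
      rw [Finset.sum_ite_eq' U.powerset V (fun _ => (1 : ℝ)), if_pos (Finset.mem_powerset.mpr hU)]
    · have : ∀ O : Finset α, (if O = V then (1 : ℝ) else 0) * d ^ (O \ V).card
          = if O = V then 1 else 0 := by
        intro O
        by_cases h : O = V
        · subst h; simp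
        · simp [h]
      rw [Finset.sum_congr rfl (fun O _ => this O)]
      simp
    · intro h; exact absurd hL (not_le.mpr h)
  · rw [not_le] at hL
    have hLs : f V < th := lt_of_le_of_lt (hf V hWV).2 hL
    have hD : 0 < th - f V := by linarith
    have hP : ∀ Y : Finset α, ∃ π : Finset α → ℝ, (∀ O, 0 ≤ π O) ∧
        (∀ O, π O ≠ 0 → V ∪ Y ⊆ O ∧ (O \ W).card ≤ nu ∧ th ≤ fp O) ∧
        ((Y.Nonempty ∧ Disjoint Y V) →
        (∀ U, V ∪ Y ⊆ U → (U \ W).card ≤ nu → Good U → 1 ≤ ∑ O ∈ U.powerset, π O)) ∧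
        (∑ O, π O * d ^ (O \ (V ∪ Y)).card ≤ 1) := by
      intro Y
      by_cases hY : (Y.Nonempty ∧ Disjoint Y V) ∧ ((V ∪ Y) \ W).card ≤ nu
      · have hlt : (univ \ (V ∪ Y)).card < n := by
          rw [← hV]
          apply Finset.card_lt_card
          obtain ⟨y, hy⟩ := hY.1.1
          rw [Finset.ssubset_iff_of_subset]
          · exact ⟨y, by simp [Finset.disjoint_left.mp hY.1.2 hy], by simp [hy]⟩
          · exact Finset.sdiff_subset_sdiff (Finset.Subset.refl _) Finset.subset_union_left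
        obtain ⟨π, h1, h2', h3', h4, _⟩ := ih _ hlt (V ∪ Y)
          (hWV.trans Finset.subset_union_left) hY.2 rfl
        exact ⟨π, h1, h2', fun _ => h3', h4⟩
      · refine ⟨fun _ => 0, fun _ => le_refl _, fun O h => absurd rfl h, ?_, by simp⟩
        intro hY2 U hU hUnu _
        exfalso
        apply hY
        refine ⟨hY2, le_trans (Finset.card_le_card ?_) hUnu⟩
        exact Finset.sdiff_subset_sdiff hU (Finset.Subset.refl _)
    choose P hP0 hP2 hP3 hP4 using hP
    set Tw : Finset α → ℝ := fun Y => if Y.Nonempty ∧ Disjoint Y V then T V Y else 0 with hTwdef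
    have hT0 : ∀ Y, 0 ≤ Tw Y := fun Y => by
      simp only [hTwdef]; split_ifs
      · exact hT V Y
      · exact le_refl _
    have hgood : ∀ Y, Tw Y ≠ 0 → Y.Nonempty ∧ Disjoint Y V := by
      intro Y hY
      by_contra h
      apply hY
      simp only [hTwdef]
      rw [if_neg h]
    have hsumTw : ∑ Y, Tw Y * d ^ Y.card ≤ fp V - f V := by
      refine le_trans (le_of_eq ?_) (h2 V hWV hL)
      rw [Finset.sum_filter]
      refine Finset.sum_congr rfl (fun Y _ => ?_)
      simp only [hTwdef]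
      split_ifs
      · rfl
      · rw [zero_mul]
    have hcost : ∑ O, (∑ Y, Tw Y / (th - f V) * P Y O) * d ^ (O \ V).card
        ≤ (fp V - f V) / (th - f V) := by
      have h1 : ∑ O, (∑ Y, Tw Y / (th - f V) * P Y O) * d ^ (O \ V).card
          = ∑ Y, Tw Y / (th - f V) * ∑ O, P Y O * d ^ (O \ V).card := by
        simp_rw [Finset.sum_mul, Finset.mul_sum]
        rw [Finset.sum_comm]
        refine Finset.sum_congr rfl (fun Y _ => Finset.sum_congr rfl (fun O _ => by ring))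
      rw [h1]
      refine le_trans ?_ (div_le_div_of_nonneg_right hsumTw hD.le)
      rw [Finset.sum_div]
      refine Finset.sum_le_sum (fun Y _ => ?_)
      by_cases hTY : Tw Y = 0
      · rw [hTY]; simp
      · have hY := hgood Y hTY
        have h5 : ∑ O, P Y O * d ^ (O \ V).card
            = d ^ Y.card * ∑ O, P Y O * d ^ (O \ (V ∪ Y)).card := by
          rw [Finset.mul_sum]
          refine Finset.sum_congr rfl (fun O _ => ?_)
          by_cases hO : P Y O = 0
          · rw [hO]; simp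
          · obtain ⟨h6, _, _⟩ := hP2 Y O hO
            rw [sdiff_card_union hY.2 h6, pow_add]; ring
        rw [h5]
        have h9 : d ^ Y.card * ∑ O, P Y O * d ^ (O \ (V ∪ Y)).card ≤ d ^ Y.card := by
          have : 0 ≤ d ^ Y.card := pow_nonneg hd _
          have := hP4 Y
          nlinarith
        calc Tw Y / (th - f V) * (d ^ Y.card * ∑ O, P Y O * d ^ (O \ (V ∪ Y)).card)
            ≤ Tw Y / (th - f V) * d ^ Y.card :=
              mul_le_mul_of_nonneg_left h9 (div_nonneg (hT0 Y) hD.le)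
          _ = Tw Y * d ^ Y.card / (th - f V) := by ring
    refine ⟨fun O => ∑ Y, Tw Y / (th - f V) * P Y O, ?_, ?_, ?_, ?_, ?_⟩
    · intro O
      exact Finset.sum_nonneg (fun Y _ => mul_nonneg (div_nonneg (hT0 Y) hD.le) (hP0 Y O))
    · intro O hO
      obtain ⟨Y, _, hY⟩ := Finset.exists_ne_zero_of_sum_ne_zero hO
      have hPY : P Y O ≠ 0 := by
        intro h; apply hY; rw [h]; simp
      obtain ⟨h6, h7, h8⟩ := hP2 Y O hPY
      exact ⟨Finset.subset_union_left.trans h6, h7, h8⟩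
    · intro U hVU hUnu hU
      have h1 : ∑ O ∈ U.powerset, (∑ Y, Tw Y / (th - f V) * P Y O)
          = ∑ Y, Tw Y / (th - f V) * ∑ O ∈ U.powerset, P Y O := by
        rw [Finset.sum_comm]
        refine Finset.sum_congr rfl (fun Y _ => ?_)
        rw [Finset.mul_sum]
      rw [h1]
      have h2' : ∑ Y ∈ U.powerset, Tw Y / (th - f V)
          ≤ ∑ Y, Tw Y / (th - f V) * ∑ O ∈ U.powerset, P Y O := by
        calc ∑ Y ∈ U.powerset, Tw Y / (th - f V)
            ≤ ∑ Y ∈ U.powerset, Tw Y / (th - f V) * ∑ O ∈ U.powerset, P Y O := by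
              refine Finset.sum_le_sum (fun Y hYU => ?_)
              by_cases hTY : Tw Y = 0
              · rw [hTY]; simp
              · have h4 := hP3 Y (hgood Y hTY) U
                  (Finset.union_subset hVU (Finset.mem_powerset.mp hYU)) hUnu hU
                have h5 : 0 ≤ Tw Y / (th - f V) := div_nonneg (hT0 Y) hD.le
                nlinarith
          _ ≤ _ := by
              refine Finset.sum_le_sum_of_subset_of_nonneg (Finset.subset_univ _)
                (fun Y _ _ => ?_)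
              exact mul_nonneg (div_nonneg (hT0 Y) hD.le)
                (Finset.sum_nonneg (fun O _ => hP0 Y O))
      refine le_trans ?_ h2'
      rw [← Finset.sum_div, le_div_iff₀ hD, one_mul]
      refine le_trans (h3 V U hWV hVU hUnu hU hL) (le_of_eq ?_)
      rw [Finset.sum_filter]
    · refine le_trans hcost ?_
      rw [div_le_one hD]
      linarith
    · intro _; exact hcost

theorem chain {f fp : Finset α → ℝ} {T : Finset α → Finset α → ℝ} {W : Finset α}
    {d th : ℝ} {nu : ℕ} (hd : 0 ≤ d) (hT : ∀ O Y, 0 ≤ T O Y)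
    (hf : ∀ O, W ⊆ O → 0 ≤ f O ∧ f O ≤ fp O)
    (h2 : ∀ O, W ⊆ O → fp O < th →
      ∑ Y with Y.Nonempty ∧ Disjoint Y O, T O Y * d ^ Y.card ≤ fp O - f O)
    (Good : Finset α → Prop)
    (h3 : ∀ O V, W ⊆ O → O ⊆ V → (V \ W).card ≤ nu → Good V → fp O < th →
      th - f O ≤ ∑ Y ∈ V.powerset with Y.Nonempty ∧ Disjoint Y O, T O Y)
    (hG : ∀ V, Good V → th ≤ fp V) :
    ∃ π : Finset α → ℝ, (∀ O, 0 ≤ π O) ∧
      (∀ O, π O ≠ 0 → W ⊆ O ∧ (O \ W).card ≤ nu ∧ th ≤ fp O) ∧
      (∀ V, W ⊆ V → (V \ W).card ≤ nu → Good V → 1 ≤ ∑ O ∈ V.powerset, π O) ∧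
      (∑ O, π O * d ^ (O \ W).card ≤ 1) ∧
      (fp W < th → ∑ O, π O * d ^ (O \ W).card ≤ fp W / th) := by
  obtain ⟨π, h1, h2', h3', h4, h5⟩ := chain_aux hd hT hf h2 Good h3 hG _ W
    (Finset.Subset.refl _) (by simp) rfl
  refine ⟨π, h1, h2', h3', h4, fun hW => ?_⟩
  refine le_trans (h5 hW) ?_
  obtain ⟨h6, h7⟩ := hf W (Finset.Subset.refl _)
  have hD : 0 < th - f W := by linarith
  rw [div_le_div_iff₀ hD (by linarith)]
  nlinarith

/-- Rounding with fallback (helper2). -/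
theorem rounding (x : Finset α → ℝ) (hx : ∀ i, 0 ≤ x i) (c : Finset α → ℝ)
    (hc : ∀ i, 0 ≤ c i) (a : Finset α → ℝ) (ha : ∀ k, 0 ≤ a k) (A : Finset (Finset α)) :
    ∀ B : Finset (Finset α), ∃ R ⊆ A,
      ∑ i ∈ R, c i + ∑ k ∈ B with ∀ i ∈ R, ¬ i ⊆ k, a k
        ≤ ∑ i ∈ A, x i * c i + ∑ k ∈ B, a k * Real.exp (-∑ i ∈ A with i ⊆ k, x i) := by
  induction A using Finset.induction_on with
  | empty =>
    intro B
    refine ⟨∅, Finset.Subset.refl _, ?_⟩
    simp
  | insert i₀ A hi₀ ih =>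
    intro B
    obtain ⟨R0, hR0, h0⟩ := ih B
    obtain ⟨R1, hR1, h1⟩ := ih (B.filter (fun k => ¬ i₀ ⊆ k))
    set y : ℝ := 1 - Real.exp (-x i₀) with hy
    have hy0 : 0 ≤ y := by
      have : Real.exp (-x i₀) ≤ 1 := Real.exp_le_one_iff.mpr (by linarith [hx i₀])
      linarith
    have hy1 : y ≤ x i₀ := by
      have := Real.add_one_le_exp (-x i₀)
      linarith
    have hy2 : y < 1 := by have := Real.exp_pos (-x i₀); linarith
    set W : Finset α → ℝ := fun k => a k * Real.exp (-∑ i ∈ A with i ⊆ k, x i) with hW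
    have hWn : ∀ k, 0 ≤ W k := fun k => mul_nonneg (ha k) (Real.exp_pos _).le
    have hsplit : ∑ k ∈ B, W k = ∑ k ∈ B with ¬ i₀ ⊆ k, W k + ∑ k ∈ B with i₀ ⊆ k, W k := by
      rw [add_comm]; exact (Finset.sum_filter_add_sum_filter_not B (fun k => i₀ ⊆ k) W).symm
    have hnew : ∑ k ∈ B, a k * Real.exp (-∑ i ∈ insert i₀ A with i ⊆ k, x i)
        = ∑ k ∈ B with ¬ i₀ ⊆ k, W k + (1 - y) * ∑ k ∈ B with i₀ ⊆ k, W k := by
      rw [← Finset.sum_filter_add_sum_filter_not B (fun k => i₀ ⊆ k), add_comm]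
      congr 1
      · refine Finset.sum_congr rfl (fun k hk => ?_)
        rw [Finset.mem_filter] at hk
        rw [Finset.filter_insert, if_neg hk.2]
      · rw [Finset.mul_sum]
        refine Finset.sum_congr rfl (fun k hk => ?_)
        rw [Finset.mem_filter] at hk
        rw [Finset.filter_insert, if_pos hk.2, Finset.sum_insert (by simp [hi₀]), neg_add,
          Real.exp_add]
        simp only [hW, hy]; ring
    have hsum : ∑ i ∈ insert i₀ A, x i * c i = x i₀ * c i₀ + ∑ i ∈ A, x i * c i :=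
      Finset.sum_insert hi₀
    have hbig : (1 - y) * (∑ i ∈ A, x i * c i + ∑ k ∈ B, W k)
        + y * (c i₀ + (∑ i ∈ A, x i * c i + ∑ k ∈ B with ¬ i₀ ⊆ k, W k))
        ≤ ∑ i ∈ insert i₀ A, x i * c i
          + ∑ k ∈ B, a k * Real.exp (-∑ i ∈ insert i₀ A with i ⊆ k, x i) := by
      rw [hnew, hsum, hsplit]
      have := mul_le_mul_of_nonneg_right hy1 (hc i₀)
      nlinarith
    by_cases hcase : ∑ i ∈ A, x i * c i + ∑ k ∈ B, W k
        ≤ c i₀ + (∑ i ∈ A, x i * c i + ∑ k ∈ B with ¬ i₀ ⊆ k, W k)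
    · refine ⟨R0, hR0.trans (Finset.subset_insert _ _), le_trans h0 (le_trans ?_ hbig)⟩
      nlinarith
    · rw [not_le] at hcase
      refine ⟨insert i₀ R1, Finset.insert_subset_insert _ hR1, le_trans ?_ hbig⟩
      have hi₁ : i₀ ∉ R1 := fun h => hi₀ (hR1 h)
      rw [Finset.sum_insert hi₁]
      have hfil : (B.filter (fun k => ∀ i ∈ insert i₀ R1, ¬ i ⊆ k))
          = ((B.filter (fun k => ¬ i₀ ⊆ k)).filter (fun k => ∀ i ∈ R1, ¬ i ⊆ k)) := by
        ext k
        simp only [Finset.mem_filter, Finset.mem_insert, forall_eq_or_imp]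
        tauto
      rw [hfil]
      nlinarith

/-- `U` contains no member of `R`. -/
def Avoid (R : Finset (Finset α)) (U : Finset α) : Prop := ∀ O ∈ R, ¬ O ⊆ U

instance (R : Finset (Finset α)) (U : Finset α) : Decidable (Avoid R U) := by
  unfold Avoid; infer_instance

/-- One rounding step with fallback. -/
theorem step {L : ℝ} (hL : 0 ≤ L) (c : Finset α → ℝ) (hc : ∀ O, 0 ≤ c O)
    (R : Finset (Finset α))
    (π : Finset α → ℝ) (hπ : ∀ O, 0 ≤ π O) (a : Finset α → ℝ) (ha : ∀ U, 0 ≤ a U)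
    (hcov : ∀ U, a U ≠ 0 → 1 ≤ ∑ O ∈ U.powerset, π O) :
    ∃ R' : Finset (Finset α), R ⊆ R' ∧ (∀ O ∈ R', O ∈ R ∨ π O ≠ 0) ∧
      ∑ O ∈ R', c O + ∑ U with Avoid R' U, a U
        ≤ ∑ O ∈ R, c O + L * ∑ O with Avoid R O, π O * c O
          + Real.exp (-L) * ∑ U, a U := by
  obtain ⟨R1, hR1, h1⟩ := rounding (fun O => L * π O)
    (fun O => mul_nonneg hL (hπ O)) c hc a ha
    (univ.filter (fun O => Avoid R O ∧ π O ≠ 0)) (univ.filter (fun O => Avoid R O))
  refine ⟨R ∪ R1, Finset.subset_union_left, ?_, ?_⟩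
  · intro O hO
    rcases Finset.mem_union.mp hO with h | h
    · exact Or.inl h
    · exact Or.inr (Finset.mem_filter.mp (hR1 h)).2.2
  have h2 : ∑ O ∈ R ∪ R1, c O ≤ ∑ O ∈ R, c O + ∑ O ∈ R1, c O := by
    rw [← Finset.sum_union_inter]
    have : 0 ≤ ∑ O ∈ R ∩ R1, c O := Finset.sum_nonneg (fun O _ => hc _)
    linarith
  have h3 : (univ.filter (fun U : Finset α => Avoid (R ∪ R1) U))
      = (univ.filter (fun U => Avoid R U)).filter (fun U => ∀ O ∈ R1, ¬ O ⊆ U) := by
    ext U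
    rw [Finset.mem_filter, Finset.mem_filter, Finset.mem_filter]
    constructor
    · rintro ⟨h0, h⟩
      exact ⟨⟨h0, fun O hO => h O (Finset.mem_union_left _ hO)⟩,
        fun O hO => h O (Finset.mem_union_right _ hO)⟩
    · rintro ⟨⟨h0, h⟩, h'⟩
      refine ⟨h0, fun O hO => ?_⟩
      rcases Finset.mem_union.mp hO with hO | hO
      · exact h O hO
      · exact h' O hO
  have h4 : ∑ O ∈ univ.filter (fun O : Finset α => Avoid R O ∧ π O ≠ 0), L * π O * c O
      = L * ∑ O with Avoid R O, π O * c O := by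
    rw [Finset.mul_sum]
    rw [← Finset.filter_filter, Finset.sum_filter]
    refine Finset.sum_congr rfl (fun O _ => ?_)
    by_cases h : π O = 0
    · simp [h]
    · rw [if_pos h]; ring
  have h5 : ∑ k ∈ univ.filter (fun O : Finset α => Avoid R O),
      a k * Real.exp (-∑ i ∈ (univ.filter (fun O : Finset α => Avoid R O ∧ π O ≠ 0))
        with i ⊆ k, L * π i)
      ≤ Real.exp (-L) * ∑ U, a U := by
    calc _ ≤ ∑ k ∈ univ.filter (fun O : Finset α => Avoid R O), Real.exp (-L) * a k := by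
          refine Finset.sum_le_sum (fun k hk => ?_)
          rw [Finset.mem_filter] at hk
          by_cases hak : a k = 0
          · rw [hak]; simp
          · have h6 : ∑ i ∈ (univ.filter (fun O : Finset α => Avoid R O ∧ π O ≠ 0)).filter
                (fun i => i ⊆ k), L * π i = ∑ i ∈ k.powerset, L * π i := by
              have h6' : (univ.filter (fun O : Finset α => Avoid R O ∧ π O ≠ 0)).filter
                (fun i => i ⊆ k) = k.powerset.filter (fun i => π i ≠ 0) := by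
                ext O
                simp only [Finset.mem_filter, Finset.mem_univ, true_and, Finset.mem_powerset]
                constructor
                · exact fun h => ⟨h.2, h.1.2⟩
                · exact fun h => ⟨⟨fun O' hO' h7 => hk.2 O' hO' (h7.trans h.1), h.2⟩, h.1⟩
              rw [h6', Finset.sum_filter]
              refine Finset.sum_congr rfl (fun O _ => ?_)
              by_cases h : π O = 0
              · simp [h]
              · rw [if_pos h]
            rw [h6, ← Finset.mul_sum, mul_comm (a k)]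
            refine mul_le_mul_of_nonneg_right ?_ (ha k)
            rw [Real.exp_le_exp]
            have h7 := hcov k hak
            nlinarith
      _ ≤ ∑ U, Real.exp (-L) * a U :=
          Finset.sum_le_sum_of_subset_of_nonneg (Finset.subset_univ _)
            (fun U _ _ => mul_nonneg (Real.exp_pos _).le (ha U))
      _ = _ := by rw [Finset.mul_sum]
  rw [h3]
  have h1' : ∑ O ∈ R1, c O
      + ∑ U ∈ (univ.filter (fun U : Finset α => Avoid R U)).filter (fun U => ∀ O ∈ R1, ¬ O ⊆ U), a U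
      ≤ ∑ O ∈ univ.filter (fun O : Finset α => Avoid R O ∧ π O ≠ 0), L * π O * c O
        + ∑ k ∈ univ.filter (fun O : Finset α => Avoid R O), a k * Real.exp
          (-∑ i ∈ (univ.filter (fun O : Finset α => Avoid R O ∧ π O ≠ 0)) with i ⊆ k,
            L * π i) := h1
  rw [h4] at h1'
  linarith

theorem three_levels (c : Finset α → ℝ) (hc : ∀ O, 0 ≤ c O) (p0 p1 p2 : Finset α → ℝ)
    (hp0 : ∀ O, 0 ≤ p0 O) (hp1 : ∀ O, 0 ≤ p1 O) (hp2 : ∀ O, 0 ≤ p2 O)
    (A1 A2 Tg : Finset α → Prop) [DecidablePred Tg]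
    (h1s : ∀ O, p1 O ≠ 0 → A1 O) (h2s : ∀ O, p2 O ≠ 0 → A2 O)
    (h0v : ∀ V, A1 V → 1 ≤ ∑ O ∈ V.powerset, p0 O)
    (h1v : ∀ V, A2 V → 1 ≤ ∑ O ∈ V.powerset, p1 O)
    (h2v : ∀ V, Tg V → 1 ≤ ∑ O ∈ V.powerset, p2 O)
    {L0 L1 L2 : ℝ} (hL0 : 0 ≤ L0) (hL1 : 0 ≤ L1) (hL2 : 0 ≤ L2) :
    ∃ G : Finset (Finset α), (∀ V, Tg V → ∃ O ∈ G, O ⊆ V) ∧
      (∀ O ∈ G, p0 O ≠ 0 ∨ p1 O ≠ 0 ∨ p2 O ≠ 0 ∨ Tg O) ∧
      ∑ O ∈ G, c O ≤ L0 * ∑ O, p0 O * c O + L1 * Real.exp (-L0) * ∑ O, p1 O * c O
        + L2 * Real.exp (-L1) * ∑ O, p2 O * c O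
        + Real.exp (-L2) * ∑ V with Tg V, c V := by
  obtain ⟨R1, hR1, hm1, h1⟩ := step hL0 c hc ∅ p0 hp0 (fun O => L1 * (p1 O * c O))
    (fun O => mul_nonneg hL1 (mul_nonneg (hp1 O) (hc O)))
    (fun O hO => h0v O (h1s O (fun h => hO (by simp [h]))))
  obtain ⟨R2, hR2, hm2, h2⟩ := step hL1 c hc R1 p1 hp1 (fun O => L2 * (p2 O * c O))
    (fun O => mul_nonneg hL2 (mul_nonneg (hp2 O) (hc O)))
    (fun O hO => h1v O (h2s O (fun h => hO (by simp [h]))))
  obtain ⟨R3, hR3, hm3, h3⟩ := step hL2 c hc R2 p2 hp2 (fun O => if Tg O then c O else 0)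
    (fun O => by split_ifs <;> [exact hc O; exact le_refl _])
    (fun O hO => h2v O (by
      by_contra h
      apply hO
      simp only [if_neg h]))
  refine ⟨R3 ∪ univ.filter (fun O => Avoid R3 O ∧ Tg O), ?_, ?_, ?_⟩
  · intro V hV
    by_cases h : Avoid R3 V
    · exact ⟨V, Finset.mem_union_right _ (by simp [h, hV]), Finset.Subset.refl _⟩
    · unfold Avoid at h
      push Not at h
      obtain ⟨O, hO, hOH⟩ := h
      exact ⟨O, Finset.mem_union_left _ hO, hOH⟩
  · intro O hO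
    rcases Finset.mem_union.mp hO with h | h
    · rcases hm3 O h with h | h
      · rcases hm2 O h with h | h
        · rcases hm1 O h with h | h
          · simp at h
          · exact Or.inl h
        · exact Or.inr (Or.inl h)
      · exact Or.inr (Or.inr (Or.inl h))
    · exact Or.inr (Or.inr (Or.inr (Finset.mem_filter.mp h).2.2))
  · have e0 : ∑ O ∈ R3 ∪ univ.filter (fun O => Avoid R3 O ∧ Tg O), c O
        ≤ ∑ O ∈ R3, c O + ∑ U with Avoid R3 U, (if Tg U then c U else 0) := by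
      have h2' : ∑ U with Avoid R3 U, (if Tg U then c U else 0)
          = ∑ U ∈ univ.filter (fun U => Avoid R3 U ∧ Tg U), c U := by
        rw [← Finset.filter_filter]
        exact (Finset.sum_filter (fun U : Finset α => Tg U) c).symm
      rw [h2', ← Finset.sum_union_inter]
      have : 0 ≤ ∑ O ∈ R3 ∩ univ.filter (fun U => Avoid R3 U ∧ Tg U), c O :=
        Finset.sum_nonneg (fun O _ => hc _)
      linarith
    have e1 : ∑ O with Avoid (∅ : Finset (Finset α)) O, p0 O * c O ≤ ∑ O, p0 O * c O :=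
      Finset.sum_le_sum_of_subset_of_nonneg (Finset.subset_univ _)
        (fun O _ _ => mul_nonneg (hp0 O) (hc O))
    have e1' := mul_le_mul_of_nonneg_left e1 hL0
    have e2 : ∑ U with Avoid R1 U, L1 * (p1 U * c U) = L1 * ∑ O with Avoid R1 O, p1 O * c O := by
      rw [Finset.mul_sum]
    have e3 : ∑ U, L1 * (p1 U * c U) = L1 * ∑ O, p1 O * c O := by rw [Finset.mul_sum]
    have e4 : ∑ U with Avoid R2 U, L2 * (p2 U * c U) = L2 * ∑ O with Avoid R2 O, p2 O * c O := by
      rw [Finset.mul_sum]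
    have e5 : ∑ U, L2 * (p2 U * c U) = L2 * ∑ O, p2 O * c O := by rw [Finset.mul_sum]
    have e6 : ∑ U, (if Tg U then c U else 0) = ∑ V with Tg V, c V := by
      rw [Finset.sum_filter]
    rw [e2, e3] at h1
    rw [e4, e5] at h2
    rw [e6] at h3
    rw [Finset.sum_empty] at h1
    linarith

end Vale.Agent.H24.P034
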